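import Vale.Agent.P235.Fast25
import Vale.Agent.P235.Link
import Vale.Agent.P235.MonoL

namespace Vale.Agent.P235.T25

theorem cF (C : List Fm) (t : FT) (h : chk C t = true) : Closed C := closedF (linkS monoS) C t h

end Vale.Agent.P235.T25
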